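import Crest.Agent.R18.FI.Ray

/-! Row 18 block FI: the Galois action on divisors and the conorm. -/

set_option autoImplicit false
set_option linter.unusedSectionVars false
open scoped NumberField Pointwise
open IsDedekindDomain

namespace Crest.Agent.R18.FI

variable {K L : Type*} [Field K] [NumberField K] [Field L] [NumberField L] [Algebra K L] {ℓ : ℕ}

noncomputable instance primeAct : MulAction (L ≃ₐ[K] L) (HeightOneSpectrum (𝓞 L)) where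
  smul σ 𝔓 := ⟨σ • 𝔓.asIdeal, have := 𝔓.isPrime; Ideal.IsPrime.smul σ, fun h => 𝔓.ne_bot (by
    rw [← inv_smul_smul σ 𝔓.asIdeal, h, Ideal.smul_bot])⟩
  one_smul 𝔓 := HeightOneSpectrum.ext (one_smul _ 𝔓.asIdeal)
  mul_smul σ τ 𝔓 := HeightOneSpectrum.ext (mul_smul σ τ 𝔓.asIdeal)

theorem smul_asIdeal (σ : L ≃ₐ[K] L) (𝔓 : HeightOneSpectrum (𝓞 L)) : (σ • 𝔓).asIdeal = σ • 𝔓.asIdeal := rfl

theorem coe_smul (σ : L ≃ₐ[K] L) (a : 𝓞 L) : algebraMap (𝓞 L) L (σ • a) = σ (algebraMap (𝓞 L) L a) := rfl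

theorem val_smul (σ : L ≃ₐ[K] L) (𝔓 : HeightOneSpectrum (𝓞 L)) (x : L) :
    (σ • 𝔓).valuation L (σ x) = 𝔓.valuation L x := by
  have h : ∀ a : 𝓞 L, (σ • 𝔓).valuation L (σ (algebraMap _ L a)) = 𝔓.valuation L (algebraMap _ L a) := fun a => by
    rw [← coe_smul, HeightOneSpectrum.valuation_of_algebraMap, HeightOneSpectrum.valuation_of_algebraMap]
    rcases eq_or_ne a 0 with rfl | ha
    · simp
    have h1 : ∀ n : ℕ, (σ • 𝔓).intValuation (σ • a) ≤ WithZero.exp (-(n : ℤ)) ↔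
        𝔓.intValuation a ≤ WithZero.exp (-(n : ℤ)) := fun n => by
      rw [HeightOneSpectrum.intValuation_le_pow_iff_mem, HeightOneSpectrum.intValuation_le_pow_iff_mem, smul_asIdeal,
        ← smul_pow', Ideal.smul_mem_pointwise_smul_iff]
    apply le_antisymm
    · rw [𝔓.intValuation_if_neg ha, h1, 𝔓.intValuation_if_neg ha]
    · have ha' := (smul_ne_zero_iff_ne σ).2 ha
      rw [(σ • 𝔓).intValuation_if_neg ha', ← h1, (σ • 𝔓).intValuation_if_neg ha']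
  obtain ⟨a, b, -, rfl⟩ := IsFractionRing.div_surjective (A := 𝓞 L) x
  rw [map_div₀, map_div₀, map_div₀, h, h]

theorem mem_smul (σ : L ≃ₐ[K] L) (𝔓 : HeightOneSpectrum (𝓞 L)) :
    (ℓ : 𝓞 L) ∈ (σ • 𝔓).asIdeal ↔ (ℓ : 𝓞 L) ∈ 𝔓.asIdeal := by
  rw [smul_asIdeal, Ideal.mem_pointwise_smul_iff_inv_smul_mem,
    show σ⁻¹ • (ℓ : 𝓞 L) = ℓ from map_natCast (MulSemiringAction.toRingHom _ _ σ⁻¹) ℓ]

theorem map_mem_Sl (σ : L ≃ₐ[K] L) {x : L} (hx : x ∈ Sl L ℓ) : σ x ∈ Sl L ℓ := mem_Sl.2 fun 𝔓 h => by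
  rw [← smul_inv_smul σ 𝔓, val_smul]
  exact mem_Sl.1 hx _ ((mem_smul ..).2 h)

variable (K L) in
/-- the multiplicative group as a Galois module -/
def rhoU : (L ≃ₐ[K] L) →* AddMonoid.End (Additive Lˣ) where
  toFun σ := MonoidHom.toAdditive (Units.map (σ : L →* L))
  map_one' := rfl
  map_mul' _ _ := rfl

theorem rhoU_val (σ : L ≃ₐ[K] L) (x : Additive Lˣ) : ((rhoU K L σ x).toMul : L) = σ (x.toMul : L) := rfl

theorem dvH_comm (σ : L ≃ₐ[K] L) (x : Additive Lˣ) : dvH L (rhoU K L σ x) = perm _ _ σ (dvH L x) := by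
  ext 𝔓
  rw [← smul_inv_smul σ 𝔓, perm_smul, dvH_apply, dvH_apply, rhoU_val, ord, val_smul, ord]

theorem J0_stable (σ : L ≃ₐ[K] L) (D) (hD : D ∈ J0 L ℓ) : perm _ _ σ D ∈ J0 L ℓ := fun 𝔓 h => by
  rw [perm_apply, hD _ ((mem_smul ..).2 h)]

theorem J0_h1 {g : L ≃ₐ[K] L} (hg : ∀ σ, σ ∈ Subgroup.zpowers g) :
    J0 L ℓ ⊓ (nG (perm (L ≃ₐ[K] L) _)).ker ≤ (J0 L ℓ).map (dG (perm _ _) g) := by
  classical
  rintro D ⟨hD, h⟩
  obtain ⟨D, rfl⟩ := perm_h1 hg h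
  refine ⟨D.filter fun 𝔓 => ¬ (ℓ : 𝓞 L) ∈ 𝔓.asIdeal, fun 𝔓 h => Finsupp.filter_apply_neg _ _ (not_not.2 h), ?_⟩
  ext 𝔓
  by_cases h : (ℓ : 𝓞 L) ∈ 𝔓.asIdeal
  · rw [hD 𝔓 h]
    simp [dG_apply, perm_apply, mem_smul, h]
  · simp [dG_apply, perm_apply, mem_smul, h]

open Classical in
variable (K L ℓ) in
/-- the conorm, away from `ℓ` -/
noncomputable def con : (HeightOneSpectrum (𝓞 K) →₀ ℤ) →+ (HeightOneSpectrum (𝓞 L) →₀ ℤ) :=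
  AddMonoidHom.mk' (fun D => Finsupp.ofSupportFinite
    (fun 𝔓 => if (ℓ : 𝓞 L) ∈ 𝔓.asIdeal then 0 else D (𝔓.under (𝓞 K))) (by
      refine ((D.hasFiniteSupport.preimage' (f := fun 𝔓 : HeightOneSpectrum (𝓞 L) => 𝔓.under (𝓞 K))
        fun 𝔭 _ => ?_)).subset fun 𝔓 h h' => h (by simp [h'])
      have := 𝔭.isMaximal
      exact ((IsDedekindDomain.primesOver_finite 𝔭.asIdeal (𝓞 L)).preimage
        (f := HeightOneSpectrum.asIdeal) fun _ _ _ _ => HeightOneSpectrum.ext).subset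
          fun 𝔓 h => ⟨𝔓.isPrime, ⟨congrArg _ h.symm⟩⟩)) fun D D' => by
    ext 𝔓
    simp only [Finsupp.ofSupportFinite_coe, Finsupp.add_apply]
    split_ifs <;> simp

open Classical in
theorem con_apply (D) (𝔓 : HeightOneSpectrum (𝓞 L)) :
    con K L ℓ D 𝔓 = if (ℓ : 𝓞 L) ∈ 𝔓.asIdeal then 0 else D (𝔓.under (𝓞 K)) := rfl

theorem mem_under (𝔓 : HeightOneSpectrum (𝓞 L)) : (ℓ : 𝓞 K) ∈ (𝔓.under (𝓞 K)).asIdeal ↔ (ℓ : 𝓞 L) ∈ 𝔓.asIdeal := by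
  rw [HeightOneSpectrum.under_asIdeal, Ideal.under_def, Ideal.mem_comap, map_natCast]

theorem con_single_of_mem {𝔭 : HeightOneSpectrum (𝓞 K)} (h : (ℓ : 𝓞 K) ∈ 𝔭.asIdeal) (n : ℤ) :
    con K L ℓ (Finsupp.single 𝔭 n) = 0 := by
  ext 𝔓
  rw [con_apply]
  split_ifs with h'
  · rfl
  · exact Finsupp.single_eq_of_ne fun e => h' ((mem_under (K := K) 𝔓).1 (e ▸ h))

theorem map_Sl {x : K} (hx : x ∈ Sl K ℓ) : algebraMap K L x ∈ Sl L ℓ := mem_Sl.2 fun 𝔓 h => by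
  have : 𝔓.asIdeal.LiesOver (𝔓.under (𝓞 K)).asIdeal := ⟨rfl⟩
  rw [← HeightOneSpectrum.valuation_liesOver L (𝔓.under (𝓞 K)) 𝔓]
  exact pow_le_one' (mem_Sl.1 hx _ ((mem_under 𝔓).2 h)) _

variable [IsGalois K L]

theorem under_eq_iff {𝔓 𝔔 : HeightOneSpectrum (𝓞 L)} :
    𝔓.under (𝓞 K) = 𝔔.under (𝓞 K) ↔ ∃ σ : L ≃ₐ[K] L, σ • 𝔓 = 𝔔 := by
  constructor
  · intro h
    have := 𝔓.isPrime
    have := 𝔔.isPrime
    have : 𝔔.asIdeal.LiesOver (𝔓.asIdeal.under (𝓞 K)) := ⟨congrArg HeightOneSpectrum.asIdeal h⟩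
    obtain ⟨σ, hσ⟩ := Ideal.exists_smul_eq_of_isGaloisGroup (𝔓.asIdeal.under (𝓞 K)) 𝔓.asIdeal 𝔔.asIdeal (L ≃ₐ[K] L)
    exact ⟨σ, HeightOneSpectrum.ext hσ⟩
  · rintro ⟨σ, rfl⟩
    exact HeightOneSpectrum.ext (Ideal.under_smul (𝓞 K) 𝔓.asIdeal σ).symm

theorem con_dv (hunr : ∀ 𝔓 : HeightOneSpectrum (𝓞 L), (ℓ : 𝓞 L) ∉ 𝔓.asIdeal → 𝔓.asIdeal.inertia (L ≃ₐ[K] L) = ⊥)
    {x : K} {y : Additive Lˣ} (hy : y ∈ SU L ℓ) (e : (y.toMul : L) = algebraMap K L x) :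
    con K L ℓ (dv x) = dvH L y := by
  ext 𝔓
  rw [con_apply]
  split_ifs with h
  · exact (mem_SU_iff.1 hy 𝔓 h).symm
  have := 𝔓.isPrime
  have := (𝔓.under (𝓞 K)).isPrime
  have : 𝔓.asIdeal.LiesOver (𝔓.under (𝓞 K)).asIdeal := ⟨rfl⟩
  have h1 := Ideal.card_inertia_eq_ramificationIdxIn (G := L ≃ₐ[K] L) (𝔓.under (𝓞 K)).asIdeal 𝔓.asIdeal
  rw [hunr 𝔓 h, Subgroup.card_bot, Ideal.ramificationIdxIn_eq_ramificationIdx _ 𝔓.asIdeal (L ≃ₐ[K] L),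
    ← Ideal.ramificationIdx'_eq_ramificationIdx _ _ (𝔓.under (𝓞 K)).ne_bot] at h1
  rw [dv_apply, dvH_apply, e, ord, ord, ← HeightOneSpectrum.valuation_liesOver L (𝔓.under (𝓞 K)) 𝔓, ← h1, pow_one]

theorem con_single {𝔓 : HeightOneSpectrum (𝓞 L)} (h : (ℓ : 𝓞 L) ∉ 𝔓.asIdeal) :
    con K L ℓ (Finsupp.single (𝔓.under (𝓞 K)) (Nat.card (MulAction.stabilizer (L ≃ₐ[K] L) 𝔓.asIdeal))) =
      nG (perm (L ≃ₐ[K] L) _) (Finsupp.single 𝔓 1) := by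
  classical
  ext 𝔔
  simp only [con_apply, nG_apply, perm_single, Finsupp.finsetSum_apply, Finsupp.single_apply, under_eq_iff]
  by_cases h' : ∃ σ : L ≃ₐ[K] L, σ • 𝔓 = 𝔔
  · obtain ⟨τ, rfl⟩ := h'
    rw [if_neg (by rwa [mem_smul]), if_pos ⟨τ, rfl⟩, ← Equiv.sum_comp (Equiv.mulLeft τ), Finset.sum_boole,
      Nat.card_eq_fintype_card, Fintype.card_subtype]
    congr 2
    ext σ
    simp [mul_smul, HeightOneSpectrum.ext_iff (x := σ • 𝔓), smul_asIdeal]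
  · rw [if_neg h', ite_self, Finset.sum_eq_zero fun σ _ => if_neg fun e => h' ⟨σ, e⟩]

theorem con_range {g : L ≃ₐ[K] L} (hg : ∀ σ, σ ∈ Subgroup.zpowers g) :
    (con K L ℓ).range = J0 L ℓ ⊓ (dG (perm _ _) g).ker := by
  classical
  apply le_antisymm
  · rintro _ ⟨D, rfl⟩
    refine ⟨fun 𝔓 h => if_pos h, Finsupp.ext fun 𝔓 => ?_⟩
    rw [dG_apply, Finsupp.sub_apply, perm_apply, con_apply, con_apply, under_eq_iff.2 ⟨g, smul_inv_smul g 𝔓⟩,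
      if_congr (mem_smul (ℓ := ℓ) g⁻¹ 𝔓) rfl rfl]
    exact sub_self _
  · rintro D ⟨hD, h⟩
    have : ∀ 𝔭 : HeightOneSpectrum (𝓞 K), ∃ 𝔓 : HeightOneSpectrum (𝓞 L), 𝔓.under (𝓞 K) = 𝔭 := fun 𝔭 => by
      have := 𝔭.isPrime
      obtain ⟨⟨P, hP, hP'⟩⟩ := (inferInstance : Nonempty (𝔭.asIdeal.primesOver (𝓞 L)))
      exact ⟨⟨P, hP, Ideal.ne_bot_of_liesOver_of_ne_bot 𝔭.ne_bot P⟩, HeightOneSpectrum.ext hP'.over.symm⟩
    choose s hs using this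
    refine ⟨D.comapDomain s (Function.LeftInverse.injective hs).injOn, Finsupp.ext fun 𝔓 => ?_⟩
    rw [con_apply]
    split_ifs with h'
    · exact (hD 𝔓 h').symm
    · obtain ⟨σ, hσ⟩ := under_eq_iff.1 (hs (𝔓.under (𝓞 K)))
      rw [Finsupp.comapDomain_apply, ← perm_smul σ, hσ, fix_all hg h]

end Crest.Agent.R18.FI
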