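import Crest.Agent.R18.MU
import Crest.Agent.R18.FI.Div

/-! Row 18 block FI: the Herbrand quotient of the units. -/

set_option autoImplicit false
set_option linter.unusedSectionVars false
open scoped NumberField
open NumberField AddSubgroup

namespace Crest.Agent.R18.FI

section
variable {G X : Type*} [Group G] [Fintype G] [MulAction G X] {A : AddSubgroup (X →₀ ℤ)} {g : G}

/-- a stable subgroup of rank one of a permutation module of a group of odd order -/
theorem hq_rank_one (hodd : Odd (Fintype.card G)) (hA : ∀ σ, ∀ a ∈ A, perm G X σ a ∈ A) (w : X)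
    (hw : ∀ a ∈ A, a w = 0 → a = 0) (h0 : A ≠ ⊥) :
    hq (nG (perm G X)) (dG (perm G X) g) A = 1 ∧ hq (dG (perm G X) g) (nG (perm G X)) A = Fintype.card G := by
  have h1 : ∀ σ, ∀ a ∈ A, perm G X σ a = a := fun σ a ha => by
    rcases eq_or_ne (a w) 0 with h | h
    · rw [hw a ha h, map_zero]
    have e1 := sub_eq_zero.1 (hw _ (sub_mem (zsmul_mem (hA σ a ha) (a w)) (zsmul_mem ha (perm G X σ a w)))
      (by simp [mul_comm]))
    have e2 : ∀ k : ℕ, a w ^ k • perm G X (σ ^ k) a = perm G X σ a w ^ k • a := fun k => by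
      induction k with
      | zero => simp
      | succ k ih => rw [pow_succ, pow_succ, pow_succ, ← rho_mul, mul_smul, ← map_zsmul, e1, map_zsmul, smul_comm, ih,
          smul_smul, mul_comm]
    have e3 := congrArg (· w) (e2 (Fintype.card G))
    simp only [pow_card_eq_one, map_one, AddMonoid.End.one_apply, Finsupp.smul_apply, smul_eq_mul] at e3
    rw [← (hodd.pow_inj ..).1 (mul_right_cancel₀ h e3)] at e1
    exact smul_right_injective _ h e1
  have h2 : ∀ a ∈ A, nG (perm G X) a = Fintype.card G • a := fun a ha => by simp [nG_apply, h1 _ a ha]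
  constructor
  · refine relIndex_eq_one.2 fun a ha => ?_
    rw [(nsmul_eq_zero_iff_right Fintype.card_ne_zero).1 ((h2 a ha.1).symm.trans ha.2)]
    exact zero_mem _
  · let ev : (X →₀ ℤ) →+ ℤ := Finsupp.applyAddHom w
    obtain ⟨m, hm⟩ := Int.subgroup_cyclic (A.map ev)
    rw [← zmultiples_eq_closure] at hm
    have hm0 : m ≠ 0 := fun h => h0 (eq_bot_iff.2 fun a ha => hw a ha (by
      simpa [h, ev] using hm.le ⟨a, ha, rfl⟩))
    have e1 : A ⊓ (dG (perm G X) g).ker = A := inf_of_le_left fun a ha => sub_eq_zero.2 (h1 g a ha).symm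
    have e2 : A.map (nG (perm G X)) = A.map (nsmulAddMonoidHom (Fintype.card G)) := by
      ext b
      exact exists_congr fun a => and_congr_right fun ha => by rw [h2 a ha]; rfl
    have e3 : A ⊓ ev.ker = ⊥ := eq_bot_iff.2 fun a ha => hw a ha.1 ha.2
    have e4 := rel_map ev (show A.map (nsmulAddMonoidHom (Fintype.card G)) ≤ A by
      rintro _ ⟨a, ha, rfl⟩
      exact nsmul_mem ha _)
    rw [e3, sup_bot_eq, map_comm ev (D' := nsmulAddMonoidHom (Fintype.card G)) (fun x => map_nsmul ..) A |>.symm, hm,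
      AddMonoidHom.map_zmultiples] at e4
    rw [hq, e1, e2, ← e4]
    refine mul_right_cancel₀ (Int.natAbs_ne_zero.2 hm0) ?_
    conv_lhs => rw [← Int.index_zmultiples]
    rw [nsmulAddMonoidHom_apply, relIndex_mul_index (zmultiples_le_of_mem (nsmul_mem (mem_zmultiples m) _)), Int.index_zmultiples]
    simp [Int.natAbs_mul]

end

variable {K L : Type*} [Field K] [NumberField K] [Field L] [NumberField L] [Algebra K L] {g : L ≃ₐ[K] L}

variable (L) in
/-- the global units -/
noncomputable def uι : Additive (𝓞 L)ˣ →+ Additive Lˣ := MonoidHom.toAdditive (Units.map (algebraMap (𝓞 L) L : 𝓞 L →* L))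

theorem uι_inj : Function.Injective (uι L) := Units.map_injective (IsFractionRing.injective (𝓞 L) L)

theorem ker_dvH : (dvH L).ker = (uι L).range := by
  ext x
  exact (dv_eq_zero_iff x.toMul.ne_zero).trans
    ⟨fun ⟨u, h⟩ => ⟨.ofMul u, Units.ext h.symm⟩, fun ⟨u, h⟩ => ⟨u.toMul, h ▸ rfl⟩⟩

theorem ker_dvH_stable (σ : L ≃ₐ[K] L) (x) (hx : x ∈ (dvH L).ker) : rhoU K L σ x ∈ (dvH L).ker := by
  rw [AddMonoidHom.mem_ker, dvH_comm, hx, map_zero]

theorem hq_units [IsGalois K L] (hodd : Odd (Fintype.card (L ≃ₐ[K] L))) (hg : ∀ σ, σ ∈ Subgroup.zpowers g) :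
    hq (dG (rhoU K L) g) (nG (rhoU K L)) (dvH L).ker ≠ 0 ∧ hq (nG (rhoU K L)) (dG (rhoU K L) g) (dvH L).ker =
      Fintype.card (L ≃ₐ[K] L) * hq (dG (rhoU K L) g) (nG (rhoU K L)) (dvH L).ker := by
  classical
  have hf : ∀ (σ : L ≃ₐ[K] L) (w : InfinitePlace L), σ • w = w → σ = 1 := fun σ w h => by
    have h1 := (InfinitePlace.nat_card_stabilizer_eq_one_or_two K w).resolve_right fun h2 => by
      have := h2 ▸ Subgroup.card_subgroup_dvd_card (MulAction.stabilizer (L ≃ₐ[K] L) w)
      rw [Nat.card_eq_fintype_card] at this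
      exact Nat.not_even_iff_odd.2 hodd (even_iff_two_dvd.2 this)
    exact (Subgroup.card_eq_one.1 h1).le h
  obtain ⟨u, c, hc, h1, h2, h3⟩ := mu2 K L hf
  let φ₀ := Finsupp.linearCombination ℤ fun w => Additive.ofMul (u w)
  have e0 : ∀ a, (φ₀ a).toMul = ∏ w, u w ^ a w := fun a => by
    simp [φ₀, Finsupp.linearCombination_apply, Finsupp.sum_fintype, toMul_sum]
  let φ := (uι L).comp φ₀.toAddMonoidHom
  have hφ : ∀ σ a, φ (perm _ _ σ a) = rhoU K L σ (φ a) := fun σ a => by
    induction a using Finsupp.induction_linear with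
    | zero => simp
    | add a b ha hb => simp only [map_add, ha, hb]
    | single w n =>
      simp only [perm_single, φ, φ₀, AddMonoidHom.comp_apply, LinearMap.toAddMonoidHom_coe,
        Finsupp.linearCombination_single, map_zsmul]
      exact congrArg _ (Units.ext (h1 σ w))
  have sF := st_of (ρ := perm (L ≃ₐ[K] L) (InfinitePlace L)) (A := ⊤) (fun _ _ _ => trivial) g
  have f0 : ⊤ ⊓ _ ≤ map _ ⊤ := (inf_le_right.trans (perm_h0 hg hf)).trans_eq (AddMonoidHom.range_eq_map _)
  have f1 : ⊤ ⊓ _ ≤ map _ ⊤ :=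
    (inf_le_right.trans (perm_h1 (X := InfinitePlace L) hg)).trans_eq (AddMonoidHom.range_eq_map _)
  obtain ⟨w⟩ : Nonempty (InfinitePlace L) := inferInstance
  obtain ⟨k1, k2⟩ := hq_rank_one (g := g) (A := ⊤ ⊓ φ.ker) hodd
    (fun σ a ha => ⟨trivial, show φ _ = 0 by rw [hφ, show φ a = 0 from ha.2, map_zero]⟩) w
    (fun a ha h => DFunLike.coe_injective (h3 a w h (by
      rw [← e0, show φ₀ a = 0 from uι_inj (ha.2.trans (map_zero _).symm)]
      exact IsOfFinOrder.one))) fun h => by
      have := LinearMap.finrank_le_finrank_of_injective (f := φ₀) ((injective_iff_map_eq_zero _).2 fun a ha =>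
        h.le ⟨trivial, show uι L (φ₀ a) = 0 by rw [ha, map_zero]⟩)
      rw [Units.finrank_eq, Module.finrank_finsupp_self, Units.rank] at this
      have := Fintype.card_pos (α := InfinitePlace L)
      omega
  refine (hq_iff (st_of ker_dvH_stable g) (sF.map φ (dG_comm φ hφ) (nG_comm φ hφ)) ?_ ?_ _).2 ?_
  · rintro _ ⟨a, -, rfl⟩
    exact (ker_dvH (L := L)).ge ⟨_, rfl⟩
  · rw [ker_dvH, ← index_comap]
    have : AddGroup.FG (Additive (𝓞 L)ˣ) := Module.Finite.iff_addGroup_fg.1 inferInstance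
    have := finiteIndex_range_nsmulAddMonoidHom_of_fg (Additive (𝓞 L)ˣ) hc.ne'
    refine (finiteIndex_of_le (H := (nsmulAddMonoidHom c).range) ?_).index_ne_zero
    rintro _ ⟨x, rfl⟩
    obtain ⟨a, ha⟩ := h2 x.toMul
    exact ⟨Finsupp.equivFunOnFinite.symm a, trivial, congrArg (uι L) (Additive.toMul.injective ((e0 _).trans ha.symm))⟩
  · rw [hq_shift sF φ (dG_comm φ hφ) (nG_comm φ hφ) f0 f1, hq_shift sF.symm φ (nG_comm φ hφ) (dG_comm φ hφ) f1 f0, k1, k2]
    simp

end Crest.Agent.R18.FI
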