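import Crest.Agent.R18.FI.Div

/-! Row 18 block FI: a cohomologically nice subgroup `V = 1 + q³ Λ` of `Lˣ`. -/

set_option autoImplicit false
set_option linter.unusedSectionVars false
open scoped NumberField
open IsDedekindDomain Filter

namespace Crest.Agent.R18.FI

variable {K L : Type*} [Field K] [NumberField K] [Field L] [NumberField L] [Algebra K L] {ℓ : ℕ}
  {S : Subring L} {p q θ u : L} {g : L ≃ₐ[K] L}

theorem den (hℓ : ℓ.Prime) (x : L) : ∀ᶠ k in atTop, (ℓ : L) ^ k * x ∈ Sl L ℓ := by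
  simp only [mem_Sl]
  refine (eventually_all_finite (finite_primes_over hℓ.ne_zero)).2 fun 𝔓 h => ?_
  rcases eq_or_ne x 0 with rfl | hx
  · simp
  have h1 : 𝔓.valuation L ℓ < 1 := by simpa using (𝔓.valuation_lt_one_iff_mem (K := L) ℓ).2 h
  have h0 := (𝔓.valuation L).ne_zero_iff.2 hx
  obtain ⟨n, hn⟩ := exists_pow_lt₀ h1 (Units.mk0 _ h0)⁻¹
  refine eventually_atTop.2 ⟨n, fun k hk => ?_⟩
  rw [map_mul, map_pow, ← le_mul_inv_iff₀ (zero_lt_iff.2 h0), one_mul]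
  exact (pow_le_pow_right_of_le_one' h1.le hk).trans (by simpa using hn.le)

theorem prod_one_add {ι : Type*} (hp : p ∈ S) (t : Finset ι) {a : ι → L} (ha : ∀ i, a i ∈ S) :
    ∃ s ∈ S, ∏ i ∈ t, (1 + p * a i) = 1 + p * ∑ i ∈ t, a i + p ^ 2 * s := by
  classical
  induction t using Finset.induction_on with
  | empty => exact ⟨0, zero_mem _, by simp⟩
  | insert i t hi ih =>
    obtain ⟨s, hs, e⟩ := ih
    refine ⟨_, add_mem (add_mem hs (mul_mem (ha i) (sum_mem fun j (_ : j ∈ t) => ha j)))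
      (mul_mem hp (mul_mem (ha i) hs)), ?_⟩
    rw [Finset.prod_insert hi, Finset.sum_insert hi, e]
    ring

theorem Jac.unit (hp : Jac S p) {s : L} (hs : s ∈ S) : ∃ x : Additive Lˣ, (x.toMul : L) = 1 + p * s :=
  let ⟨_, _, e⟩ := hp.2 s hs
  ⟨.ofMul (Units.mk0 _ (left_ne_zero_of_mul_eq_one e)), rfl⟩

theorem nG_val (x : Additive Lˣ) : ((nG (rhoU K L) x).toMul : L) = ∏ σ : L ≃ₐ[K] L, σ (x.toMul : L) := by
  simp [nG_apply, toMul_sum, rhoU_val]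

theorem sum_range_pow {M : Type*} [AddCommMonoid M] (hg : ∀ σ, σ ∈ Subgroup.zpowers g) (f : (L ≃ₐ[K] L) → M) :
    ∑ i ∈ Finset.range (orderOf g), f (g ^ i) = ∑ σ, f σ := by
  classical
  rw [← IsCyclic.image_range_orderOf hg, Finset.sum_image (by simpa using pow_injOn_Iio_orderOf)]

variable (K S θ) in
/-- the lattice `S^G [G] θ` -/
def Lam : AddSubgroup L :=
  AddSubgroup.closure {x | ∃ c ∈ S, (∀ τ : L ≃ₐ[K] L, τ c = c) ∧ ∃ σ : L ≃ₐ[K] L, x = c * σ θ}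

theorem Lam_le (hS : ∀ σ : L ≃ₐ[K] L, ∀ x ∈ S, σ x ∈ S) (hθ : θ ∈ S) : ∀ x ∈ Lam K S θ, x ∈ S :=
  (AddSubgroup.closure_le S.toAddSubgroup).2 fun _ ⟨_, hc, _, σ, e⟩ => e ▸ S.mul_mem hc (hS σ θ hθ)

theorem Lam_map (τ : L ≃ₐ[K] L) {x : L} (hx : x ∈ Lam K S θ) : τ x ∈ Lam K S θ :=
  (AddSubgroup.closure_le ((Lam K S θ).comap (τ : L →+ L))).2 (by
    rintro _ ⟨c, hc, h, σ, rfl⟩
    exact AddSubgroup.subset_closure ⟨c, hc, h, τ * σ, by simp [h]⟩) hx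

theorem Lam_dec (hg : ∀ σ, σ ∈ Subgroup.zpowers g) {x : L} (hx : x ∈ Lam K S θ) :
    ∃ μ ∈ Lam K S θ, ∃ r : L, (∀ τ : L ≃ₐ[K] L, τ r = r) ∧ x = μ - g μ + r * θ := by
  induction hx using AddSubgroup.closure_induction with
  | mem x hx =>
    obtain ⟨c, hc, h, σ, rfl⟩ := hx
    obtain ⟨k, rfl⟩ := exists_pow hg σ
    induction k with
    | zero => exact ⟨0, zero_mem _, c, h, by simp⟩
    | succ k ih =>
      obtain ⟨μ, hμ, r, hr, e⟩ := ih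
      refine ⟨_, sub_mem hμ (AddSubgroup.subset_closure ⟨c, hc, h, g ^ k, rfl⟩), r, hr, ?_⟩
      rw [map_sub, map_mul, h, pow_succ', AlgEquiv.mul_apply]
      linear_combination e
  | zero => exact ⟨0, zero_mem _, 0, by simp, by simp⟩
  | add x y _ _ hx hy =>
    obtain ⟨μ, hμ, r, hr, rfl⟩ := hx
    obtain ⟨μ', hμ', r', hr', rfl⟩ := hy
    exact ⟨_, add_mem hμ hμ', r + r', by simp [hr, hr'], by rw [map_add]; ring⟩
  | neg x _ hx =>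
    obtain ⟨μ, hμ, r, hr, rfl⟩ := hx
    exact ⟨_, neg_mem hμ, -r, by simp [hr], by rw [map_neg]; ring⟩

theorem oneAdd_stable {hp : Jac S p} {Λ : AddSubgroup L} {h1 : ∀ x ∈ Λ, x ∈ S} {h2 : ∀ s ∈ S, p * s ∈ Λ}
    (σ : L ≃ₐ[K] L) (hσ : σ p = p) (hΛ : ∀ x ∈ Λ, σ x ∈ Λ) : ∀ x ∈ oneAdd hp Λ h1 h2, rhoU K L σ x ∈ oneAdd hp Λ h1 h2 :=
  fun _ ⟨a, ha, e⟩ => ⟨_, hΛ a ha, by rw [rhoU_val, e, map_add, map_one, map_mul, hσ]⟩

/-- explicit Hilbert 90 -/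
theorem h90 (hg : ∀ σ, σ ∈ Subgroup.zpowers g) (hS : ∀ σ : L ≃ₐ[K] L, ∀ x ∈ S, σ x ∈ S) (hp : Jac S p)
    (hp' : ∀ σ : L ≃ₐ[K] L, σ p = p) (hθ : θ ∈ S) {x : Additive Lˣ} {s : L} (hs : s ∈ S)
    (hx : (x.toMul : L) = 1 + p * s) (h0 : nG (rhoU K L) x = 0) :
    ∃ s ∈ S, x.toMul * g (∑ σ : L ≃ₐ[K] L, σ θ + p * s) = ∑ σ : L ≃ₐ[K] L, σ θ + p * s := by
  let W := oneAdd hp S.toAddSubgroup (fun _ h => h) fun _ h => S.mul_mem hp.1 h
  let Y : ℕ → Additive Lˣ := fun i => ∑ j ∈ Finset.range i, rhoU K L (g ^ j) x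
  choose a ha e using fun i => (sum_mem fun j _ => oneAdd_stable (g ^ j) (hp' _) (hS _) x ⟨s, hs, hx⟩ : Y i ∈ W)
  have e1 : ∀ i, ((Y (i + 1)).toMul : L) = x.toMul * g (Y i).toMul := fun i => by
    rw [← rhoU_val, ← Units.val_mul, ← toMul_add]
    simp only [Y, Finset.sum_range_succ', pow_succ', map_sum, rho_mul, pow_zero, map_one, add_comm x]
    rfl
  have e2 : Y (orderOf g) = Y 0 := (sum_range_pow hg fun σ => rhoU K L σ x).trans ((nG_apply x).symm.trans h0)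
  refine ⟨_, sum_mem fun i (_ : i ∈ Finset.range (orderOf g)) => mul_mem (ha i) (hS (g ^ i) θ hθ), ?_⟩
  have e3 : ∑ σ : L ≃ₐ[K] L, σ θ + p * ∑ i ∈ Finset.range (orderOf g), a i * (g ^ i) θ =
      ∑ i ∈ Finset.range (orderOf g), (Y i).toMul * (g ^ i) θ := by
    simp only [← sum_range_pow hg, Y, e, Finset.mul_sum, ← Finset.sum_add_distrib, add_mul, one_mul, mul_assoc]
  have e4 := Finset.sum_range_succ (fun i => ((Y i).toMul : L) * (g ^ i) θ) (orderOf g)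
  rw [Finset.sum_range_succ', e2, pow_orderOf_eq_one, pow_zero, add_left_inj] at e4
  rw [e3, map_sum, Finset.mul_sum, ← e4]
  simp only [e1, map_mul, mul_assoc, pow_succ', AlgEquiv.mul_apply]

theorem v_h1 (hg : ∀ σ, σ ∈ Subgroup.zpowers g) (hS : ∀ σ : L ≃ₐ[K] L, ∀ x ∈ S, σ x ∈ S) (hq : Jac S q) (hq0 : q ≠ 0)
    (hq' : ∀ σ : L ≃ₐ[K] L, σ q = q) (hθ : θ ∈ S) (hΛ : ∀ s ∈ S, q * s ∈ Lam K S θ) (hu : u ∈ S)
    (hu' : u * ∑ σ : L ≃ₐ[K] L, σ θ = q) (hu'' : g u = u) {h3 : Jac S (q ^ 3)} {h2 : ∀ s ∈ S, q ^ 3 * s ∈ Lam K S θ} :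
    oneAdd h3 _ (Lam_le hS hθ) h2 ⊓ (nG (rhoU K L)).ker ≤ (oneAdd h3 _ (Lam_le hS hθ) h2).map (dG (rhoU K L) g) := by
  rintro x ⟨⟨a, ha, hx⟩, h0 : nG (rhoU K L) x = 0⟩
  have haS := Lam_le hS hθ a ha
  obtain ⟨μ, hμ, r, hr, e⟩ := Lam_dec hg ha
  have hμS := Lam_le hS hθ μ hμ
  obtain ⟨s, hs, e1⟩ := prod_one_add h3.1 Finset.univ fun σ : L ≃ₐ[K] L => hS σ a haS
  have e2 : ∑ σ : L ≃ₐ[K] L, σ a = r * ∑ σ : L ≃ₐ[K] L, σ θ := by
    simp only [e, map_add, map_sub, map_mul, hr, Finset.sum_add_distrib, Finset.sum_sub_distrib, Finset.mul_sum]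
    rw [← Equiv.sum_comp (Equiv.mulRight g) fun σ => σ μ]
    simp
  have e3 := nG_val (K := K) x
  simp only [h0, hx, map_add, map_one, map_mul, map_pow, hq', e1, e2, toMul_zero, Units.val_one] at e3
  have e4 : r = -(q ^ 2 * s * u) := mul_left_cancel₀ (pow_ne_zero 4 hq0) (by
    linear_combination (-u) * e3 - q ^ 3 * r * hu')
  obtain ⟨b, hb⟩ := h3.unit hμS
  obtain ⟨t, ht, e5⟩ := h3.2 μ hμS
  obtain ⟨s', hs', e6⟩ := h90 hg hS (hq.mul (pow_mem hq.1 4)) (by simp [hq']) hθ (x := x - dG (rhoU K L) g b)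
    (mul_mem (sub_mem (mul_mem hq.1 (mul_mem haS (hS g μ hμS))) (mul_mem (mul_mem hs hu) hθ)) ht) (by
      rw [dG_apply, toMul_sub, toMul_sub, Units.val_div_eq_div_val, Units.val_div_eq_div_val, rhoU_val, hx, hb,
        div_div_eq_mul_div, div_eq_mul_inv, ← eq_inv_of_mul_eq_one_right e5, map_add, map_one, map_mul, map_pow, hq']
      rw [e4] at e
      linear_combination e5 + q ^ 3 * t * e)
    (by rw [map_sub, h0, show nG _ (dG _ g b) = 0 from ((st_of (A := ⊤) (fun _ _ _ => trivial) g).r ⟨b, trivial, rfl⟩).2,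
      sub_zero])
  obtain ⟨b', hb'⟩ := h3.unit (mul_mem hq.1 (mul_mem hu hs'))
  refine ⟨b + b', add_mem ⟨μ, hμ, hb⟩ ⟨_, hΛ _ (mul_mem hu hs'), hb'⟩, ?_⟩
  rw [map_add, ← eq_sub_iff_add_eq', dG_apply, sub_eq_iff_eq_add]
  refine Additive.toMul.injective (Units.ext (mul_left_cancel₀ hq0 ?_))
  have e7 : q * (b'.toMul : L) = u * (∑ σ : L ≃ₐ[K] L, σ θ + q * q ^ 4 * s') := by
    rw [hb']
    linear_combination -hu'
  rw [toMul_add, Units.val_mul, rhoU_val, mul_left_comm, e7, ← e6, mul_left_comm u]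
  conv_rhs => rw [← hq' g, ← map_mul, e7, map_mul, hu'']

theorem exists_V [IsGalois K L] (hℓ : ℓ.Prime) (hg : ∀ σ, σ ∈ Subgroup.zpowers g) :
    ∃ (V : AddSubgroup (Additive Lˣ)) (N : ℕ), ray L hℓ N ≤ V ∧ V ≤ SU L ℓ ∧ (∀ σ, ∀ x ∈ V, rhoU K L σ x ∈ V) ∧
      V ⊓ (nG (rhoU K L)).ker ≤ V.map (dG (rhoU K L) g) := by
  classical
  let b := IsGalois.normalBasis K L
  have hb : ∀ σ, b σ = σ (b 1) := IsGalois.normalBasis_apply
  have ht : ∑ σ : L ≃ₐ[K] L, σ (b 1) ≠ 0 := fun h =>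
    one_ne_zero (Fintype.linearIndependent_iff.1 b.linearIndependent (fun _ => 1) (by simpa [← hb] using h) 1)
  obtain ⟨k, h1, h2, h3⟩ := ((den hℓ (b 1)).and ((den hℓ (∑ σ : L ≃ₐ[K] L, σ (b 1))⁻¹).and
    (eventually_all.2 fun σ => den hℓ (b.traceDual σ)))).exists
  have hl : (ℓ : L) ≠ 0 := Nat.cast_ne_zero.2 hℓ.ne_zero
  have hS : ∀ σ : L ≃ₐ[K] L, ∀ x ∈ Sl L ℓ, σ x ∈ Sl L ℓ := fun σ _ => map_mem_Sl σ
  have hq := jac_pow (L := L) hℓ (2 * k)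
  have hΛ : ∀ s ∈ Sl L ℓ, (ℓ : L) ^ (2 * k + 1) * s ∈ Lam K (Sl L ℓ) (ℓ ^ k * b 1) := fun s hs => by
    rw [← b.sum_repr s, Finset.mul_sum]
    refine sum_mem fun σ _ => AddSubgroup.subset_closure ⟨algebraMap K L (ℓ ^ (k + 1) * b.repr s σ), ?_,
      fun τ => τ.commutes _, σ, by simp only [Algebra.smul_def, map_mul, map_pow, map_natCast, hb σ]; ring⟩
    have := b.traceDual.traceDual_repr_apply s σ
    rw [b.traceDual_traceDual, Algebra.traceForm_apply] at this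
    rw [this, map_mul, trace_eq_sum_automorphisms, Finset.mul_sum]
    refine sum_mem fun τ _ => ?_
    convert hS τ _ (mul_mem (mul_mem (natCast_mem _ ℓ) hs) (h3 σ)) using 1
    simp only [map_mul, map_pow, map_natCast]
    ring
  have h4 : Jac (Sl L ℓ) (((ℓ : L) ^ (2 * k + 1)) ^ 3) := pow_succ' ((ℓ : L) ^ _) 2 ▸ hq.mul (pow_mem hq.1 2)
  refine ⟨oneAdd h4 _ (Lam_le hS h1) fun s hs => ?_, 8 * k + 3, ?_, ?_, fun σ => oneAdd_stable σ (by simp) fun _ =>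
    Lam_map σ, v_h1 hg hS hq (pow_ne_zero _ hl) (by simp) h1 hΛ (mul_mem (natCast_mem _ ℓ) h2) ?_ ?_⟩
  · rw [pow_succ', mul_assoc]
    exact hΛ _ (mul_mem (pow_mem hq.1 2) hs)
  · exact fun x ⟨s, hs, e⟩ => ⟨_, hΛ s hs, by rw [e]; ring⟩
  · exact fun x ⟨s, hs, e⟩ => mem_SU (mul_mem (pow_mem (natCast_mem _ ℓ) (6 * k + 2)) (Lam_le hS h1 s hs))
      (by rw [e]; ring)
  · simp only [map_mul, map_pow, map_natCast, ← Finset.mul_sum]
    field_simp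
    ring
  · simp only [map_mul, map_pow, map_natCast, map_inv₀, map_sum]
    rw [← Equiv.sum_comp (Equiv.mulLeft g) fun σ => σ (b 1)]
    rfl

end Crest.Agent.R18.FI
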