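import Mathlib

/-! Row 18 block FI: Herbrand quotients by index calculus; permutation modules of a cyclic group. -/

set_option autoImplicit false

namespace Crest.Agent.R18.FI

open AddSubgroup

section idx
variable {M I : Type*} [AddCommGroup M] [AddCommGroup I]

theorem rel_map (f : M →+ I) {H W : AddSubgroup M} (h : H ≤ W) :
    (H.map f).relIndex (W.map f) = (H ⊔ W ⊓ f.ker).relIndex W := by
  rw [relIndex_map_map, show W ⊔ f.ker = W ⊔ (H ⊔ f.ker) by rw [← sup_assoc, sup_of_le_left h], relIndex_sup_right,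
    ← inf_relIndex_right, sup_inf_assoc_of_le _ h, inf_comm]

theorem rel_lang (f : M →+ I) {H W : AddSubgroup M} (h : H ≤ W) :
    H.relIndex W = (H ⊓ f.ker).relIndex (W ⊓ f.ker) * (H.map f).relIndex (W.map f) := by
  rw [rel_map f h, ← relIndex_mul_relIndex H (H ⊔ W ⊓ f.ker) W le_sup_left (sup_le h inf_le_left), relIndex_sup_left,
    ← inf_relIndex_right H, ← inf_assoc, inf_of_le_left h]

theorem rel_ne_zero {T : Type*} [Finite T] {H W : AddSubgroup M} (f : W → T)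
    (h : ∀ x y : W, f x = f y → (x - y : M) ∈ H) : H.relIndex W ≠ 0 := by
  have : Finite (W ⧸ H.addSubgroupOf W) := Finite.of_injective (fun q => f q.out) fun q q' hq => by
    rw [← q.out_eq, ← q'.out_eq, QuotientAddGroup.eq_iff_sub_mem]
    exact h _ _ hq
  exact index_ne_zero_of_finite

/-- `|(A ⊓ ker D) / N A|` -/
noncomputable def hq (D N : M →+ M) (A : AddSubgroup M) : ℕ := (A.map N).relIndex (A ⊓ D.ker)

/-- `A` is stable under `D`, `N` and `D N = N D = 0` -/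
structure St (D N : M →+ M) (A : AddSubgroup M) : Prop where
  l : A.map N ≤ A ⊓ D.ker
  r : A.map D ≤ A ⊓ N.ker

variable {D N : M →+ M} {D' N' : I →+ I} {A B V : AddSubgroup M}

theorem St.symm (h : St D N A) : St N D A := ⟨h.r, h.l⟩

theorem hq_mul (hA : St D N A) (hB : St D N B) (h : B ≤ A) :
    (B.map N).relIndex (A.map N) * hq D N A = hq D N B * (B ⊓ D.ker).relIndex (A ⊓ D.ker) := by
  rw [hq, hq, relIndex_mul_relIndex _ _ _ (map_mono h) hA.l, relIndex_mul_relIndex _ _ _ hB.l (inf_le_inf_right _ h)]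

/-- subgroups of finite index have the same Herbrand quotient -/
theorem hq_iff (hA : St D N A) (hB : St D N B) (h : B ≤ A) (h0 : B.relIndex A ≠ 0) (n : ℕ) :
    (hq D N A ≠ 0 ∧ hq N D A = n * hq D N A) ↔ (hq D N B ≠ 0 ∧ hq N D B = n * hq D N B) := by
  have e1 := hq_mul hA hB h
  have e2 := hq_mul hA.symm hB.symm h
  have e3 := rel_lang D h
  have e4 := rel_lang N h
  obtain ⟨a, b'⟩ := mul_ne_zero_iff.1 (e3 ▸ h0)
  obtain ⟨a', b⟩ := mul_ne_zero_iff.1 (e4 ▸ h0)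
  rw [e3] at e4
  constructor
  · rintro ⟨h1, h2⟩
    refine ⟨left_ne_zero_of_mul (e1 ▸ mul_ne_zero b h1), mul_right_cancel₀ (mul_ne_zero a' b) ?_⟩
    rw [← mul_assoc, ← e2, ← e4, h2]
    linear_combination (n * (B.map D).relIndex (A.map D)) * e1
  · rintro ⟨h1, h2⟩
    refine ⟨right_ne_zero_of_mul (e1.symm ▸ mul_ne_zero h1 a), mul_left_cancel₀ (mul_ne_zero a b') ?_⟩
    rw [mul_assoc, e2, e4, h2]
    linear_combination (n * (B ⊓ N.ker).relIndex (A ⊓ N.ker)) * e1.symm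

/-- the connecting homomorphism -/
theorem rel_conn (φ : M →+ I) (hD : ∀ x, φ (D x) = D' (φ x)) :
    ((V ⊓ D.ker).map φ).relIndex (V.map φ ⊓ D'.ker) = ((V ⊓ φ.ker).map D).relIndex (φ.ker ⊓ V.map D) := by
  have e1 : V.map φ ⊓ D'.ker = (V ⊓ φ.ker.comap D).map φ := by
    ext y
    exact ⟨fun ⟨⟨x, hx, e⟩, h⟩ => ⟨x, ⟨hx, (hD x).trans (e ▸ h)⟩, e⟩,
      fun ⟨x, hx, e⟩ => ⟨⟨x, hx.1, e⟩, e ▸ (hD x).symm.trans hx.2⟩⟩
  have e2 : φ.ker ⊓ V.map D = (V ⊓ φ.ker.comap D).map D := by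
    ext y
    exact ⟨fun ⟨h, x, hx, e⟩ => ⟨x, ⟨hx, show D x ∈ φ.ker from e ▸ h⟩, e⟩, fun ⟨x, hx, e⟩ => ⟨e ▸ hx.2, x, hx.1, e⟩⟩
  have h1 : D.ker ≤ φ.ker.comap D := fun x (hx : D x = 0) => show φ (D x) = 0 by rw [hx, map_zero]
  have h2 : φ.ker ≤ φ.ker.comap D := fun x (hx : φ x = 0) => show φ (D x) = 0 by rw [hD, hx, map_zero]
  rw [e1, e2, rel_map φ (inf_le_inf_left _ h1), rel_map D (inf_le_inf_left _ h2), inf_assoc, inf_assoc,
    inf_of_le_right h1, inf_of_le_right h2, sup_comm]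

theorem St.map (h : St D N V) (φ : M →+ I) (hD : ∀ x, φ (D x) = D' (φ x)) (hN : ∀ x, φ (N x) = N' (φ x)) :
    St D' N' (V.map φ) := by
  constructor
  · rintro _ ⟨_, ⟨x, hx, rfl⟩, rfl⟩
    have := h.l ⟨x, hx, rfl⟩
    exact ⟨⟨_, this.1, hN x⟩, show D' _ = 0 by rw [← hN, ← hD, show D (N x) = 0 from this.2, map_zero]⟩
  · rintro _ ⟨_, ⟨x, hx, rfl⟩, rfl⟩
    have := h.r ⟨x, hx, rfl⟩
    exact ⟨⟨_, this.1, hD x⟩, show N' _ = 0 by rw [← hD, ← hN, show N (D x) = 0 from this.2, map_zero]⟩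

theorem map_comm (φ : M →+ I) (hD : ∀ x, φ (D x) = D' (φ x)) (V : AddSubgroup M) :
    (V.map φ).map D' = (V.map D).map φ := by
  rw [map_map, map_map, show D'.comp φ = φ.comp D from AddMonoidHom.ext fun x => (hD x).symm]

/-- quotient of a cohomologically trivial module -/
theorem hq_shift (h : St D N V) (φ : M →+ I) (hD : ∀ x, φ (D x) = D' (φ x)) (hN : ∀ x, φ (N x) = N' (φ x))
    (h0 : V ⊓ D.ker ≤ V.map N) (h1 : V ⊓ N.ker ≤ V.map D) : hq D' N' (V.map φ) = hq N D (V ⊓ φ.ker) := by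
  rw [hq, hq, map_comm φ hN, le_antisymm h.l h0, rel_conn φ hD, le_antisymm h.r h1, ← inf_assoc, inf_comm V]

/-- the first inequality, abstract form -/
theorem first {J : AddSubgroup I} (hV : St D N V) (hJ : St D' N' J) (φ : M →+ I) (hD : ∀ x, φ (D x) = D' (φ x))
    (hN : ∀ x, φ (N x) = N' (φ x)) (h1 : V ⊓ N.ker ≤ V.map D) (h1' : J ⊓ N'.ker ≤ J.map D') (hP : V.map φ ≤ J)
    (hP' : (V.map φ).relIndex J ≠ 0) {n : ℕ} (hE : hq D N (V ⊓ φ.ker) ≠ 0)
    (hE' : hq N D (V ⊓ φ.ker) = n * hq D N (V ⊓ φ.ker)) :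
    n ≤ ((V ⊓ D.ker).map φ ⊔ J.map N').relIndex (J ⊓ D'.ker) := by
  have sP := hV.map φ hD hN
  have e3 := rel_lang D' hP
  have e4 := rel_lang N' hP
  obtain ⟨a, -⟩ := mul_ne_zero_iff.1 (e3 ▸ hP')
  obtain ⟨a', b⟩ := mul_ne_zero_iff.1 (e4 ▸ hP')
  have hR : (V ⊓ D.ker).map φ ≤ V.map φ ⊓ D'.ker := by
    rintro _ ⟨x, hx, rfl⟩
    exact ⟨⟨x, hx.1, rfl⟩, show D' _ = 0 by rw [← hD, show D x = 0 from hx.2, map_zero]⟩
  have i1 := relIndex_mul_relIndex _ _ _ (le_sup_left (b := J.map N'))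
    (sup_le (hR.trans (inf_le_inf_right _ hP)) hJ.l)
  rw [relIndex_sup_left, ← relIndex_mul_relIndex _ _ _ hR (inf_le_inf_right _ hP), rel_conn φ hD,
    le_antisymm hV.r h1, ← inf_assoc, inf_comm φ.ker] at i1
  have i2 := relIndex_le_of_le_left ((map_comm φ hN V).trans_le (map_mono hV.l)) b
  have i3 := hq_mul hJ.symm sP.symm hP
  rw [hq, relIndex_eq_one.2 h1', mul_one] at i3
  have i4 : hq N' D' (V.map φ) ≤ hq D N (V ⊓ φ.ker) := by
    rw [hq, map_comm φ hD, le_antisymm hV.r h1, rel_conn φ hN]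
    exact relIndex_le_of_le_right (fun x hx => ⟨⟨(hV.l hx.2).1, hx.1⟩, (hV.l hx.2).2⟩) hE
  rw [e3, i3, ← mul_assoc, mul_comm, mul_right_inj' a'] at e4
  change _ = hq N D (V ⊓ φ.ker) * _ at i1
  refine le_of_mul_le_mul_right ?_ (Nat.pos_of_ne_zero (mul_ne_zero hE a))
  rw [← mul_assoc, ← hE', ← i1, mul_comm]
  gcongr
  refine i2.trans ?_
  rw [← e4, mul_comm]
  gcongr

end idx

section rep
variable {G M I X : Type*} [Group G] [Fintype G] [AddCommGroup M] [AddCommGroup I] [MulAction G X]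

/-- `1 - g` -/
def dG (ρ : G →* AddMonoid.End M) (g : G) : M →+ M := AddMonoidHom.id M - show M →+ M from ρ g

/-- the norm -/
def nG (ρ : G →* AddMonoid.End M) : M →+ M := ∑ σ, (ρ σ : M →+ M)

variable {ρ : G →* AddMonoid.End M} {ρ' : G →* AddMonoid.End I} {g : G}

omit [Fintype G] in
theorem dG_apply (x : M) : dG ρ g x = x - ρ g x := rfl

theorem nG_apply (x : M) : nG ρ x = ∑ σ, ρ σ x := AddMonoidHom.finsetSum_apply _ _ _

omit [Fintype G] in
theorem rho_mul (σ τ : G) (x : M) : ρ σ (ρ τ x) = ρ (σ * τ) x := by rw [map_mul]; rfl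

theorem rho_nG (σ : G) (x : M) : ρ σ (nG ρ x) = nG ρ x := by
  simp only [nG_apply, map_sum, rho_mul]
  exact Equiv.sum_comp (Equiv.mulLeft σ) fun τ => ρ τ x

theorem nG_rho (σ : G) (x : M) : nG ρ (ρ σ x) = nG ρ x := by
  simp only [nG_apply, rho_mul]
  exact Equiv.sum_comp (Equiv.mulRight σ) fun τ => ρ τ x

theorem st_of {A : AddSubgroup M} (h : ∀ σ, ∀ x ∈ A, ρ σ x ∈ A) (g : G) : St (dG ρ g) (nG ρ) A := by
  constructor
  · rintro _ ⟨x, hx, rfl⟩
    exact ⟨nG_apply (ρ := ρ) x ▸ A.sum_mem fun σ _ => h σ x hx, sub_eq_zero.2 (rho_nG g x).symm⟩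
  · rintro _ ⟨x, hx, rfl⟩
    exact ⟨A.sub_mem hx (h g x hx), show nG ρ _ = 0 by rw [dG_apply, map_sub, nG_rho, sub_self]⟩

omit [Fintype G] in
theorem dG_comm (φ : M →+ I) (h : ∀ σ x, φ (ρ σ x) = ρ' σ (φ x)) (x : M) : φ (dG ρ g x) = dG ρ' g (φ x) := by
  rw [dG_apply, dG_apply, map_sub, h]

theorem nG_comm (φ : M →+ I) (h : ∀ σ x, φ (ρ σ x) = ρ' σ (φ x)) (x : M) : φ (nG ρ x) = nG ρ' (φ x) := by
  simp only [nG_apply, map_sum, h]

theorem exists_pow (hg : ∀ σ, σ ∈ Subgroup.zpowers g) (σ : G) : ∃ k : ℕ, g ^ k = σ :=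
  (isOfFinOrder_of_finite g).mem_powers_iff_mem_zpowers.2 (hg σ)

theorem fix_all (hg : ∀ σ, σ ∈ Subgroup.zpowers g) {x : M} (hx : dG ρ g x = 0) (σ : G) : ρ σ x = x := by
  obtain ⟨k, rfl⟩ := exists_pow hg σ
  induction k with
  | zero => simp
  | succ k ih => rw [pow_succ, ← rho_mul, ← sub_eq_zero.1 (show x - ρ g x = 0 from hx), ih]

theorem sub_mem_range (hg : ∀ σ, σ ∈ Subgroup.zpowers g) (σ : G) (x : M) : x - ρ σ x ∈ (dG ρ g).range := by
  obtain ⟨k, rfl⟩ := exists_pow hg σ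
  induction k with
  | zero => simp
  | succ k ih =>
    rw [pow_succ', ← rho_mul, ← sub_add_sub_cancel x (ρ (g ^ k) x)]
    exact add_mem ih ⟨_, rfl⟩

variable (G X) in
/-- the permutation module -/
noncomputable def perm : G →* AddMonoid.End (X →₀ ℤ) where
  toFun σ := Finsupp.mapDomain.addMonoidHom (σ • ·)
  map_one' := AddMonoidHom.ext fun a => by
    simp only [one_smul]
    exact Finsupp.mapDomain_id
  map_mul' σ τ := AddMonoidHom.ext fun a => by
    simp only [mul_smul]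
    exact Finsupp.mapDomain_comp

omit [Fintype G] in
theorem perm_single (σ : G) (x : X) (n : ℤ) : perm G X σ (Finsupp.single x n) = Finsupp.single (σ • x) n :=
  Finsupp.mapDomain_single

omit [Fintype G] in
theorem perm_smul (σ : G) (a : X →₀ ℤ) (x : X) : perm G X σ a (σ • x) = a x :=
  Finsupp.mapDomain_apply (MulAction.injective σ) a x

omit [Fintype G] in
theorem perm_apply (σ : G) (a : X →₀ ℤ) (x : X) : perm G X σ a x = a (σ⁻¹ • x) := by
  rw [← perm_smul σ a, smul_inv_smul]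

omit [Fintype G] in
theorem exists_rep : ∃ r : X → X, (∀ x, ∃ σ : G, σ • x = r x) ∧ ∀ (σ : G) x, r (σ • x) = r x :=
  ⟨fun x => (Quotient.mk (MulAction.orbitRel G X) x).out, fun x => Quotient.mk_out (s := MulAction.orbitRel G X) x,
    fun σ _ => congrArg _ (Quotient.sound ⟨σ, rfl⟩)⟩

theorem perm_h1 (hg : ∀ σ, σ ∈ Subgroup.zpowers g) : (nG (perm G X)).ker ≤ (dG (perm G X) g).range := by
  classical
  obtain ⟨r, hr, hr'⟩ := exists_rep (G := G) (X := X)
  have h1 : ∀ a : X →₀ ℤ, a - a.mapDomain r ∈ (dG (perm G X) g).range := fun a => by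
    induction a using Finsupp.induction_linear with
    | zero => simp
    | add a b ha hb =>
      rw [Finsupp.mapDomain_add, add_sub_add_comm]
      exact add_mem ha hb
    | single x n =>
      obtain ⟨σ, hσ⟩ := hr x
      rw [Finsupp.mapDomain_single, ← hσ, ← perm_single]
      exact sub_mem_range hg σ _
  intro a (ha : _ = 0)
  suffices a.mapDomain r = 0 by simpa [this] using h1 a
  have h2 : ∀ a : X →₀ ℤ, (nG (perm G X) a).mapDomain r = Fintype.card G • a.mapDomain r := fun a => by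
    induction a using Finsupp.induction_linear with
    | zero => simp
    | add a b ha hb => rw [map_add, Finsupp.mapDomain_add, Finsupp.mapDomain_add, ha, hb, nsmul_add]
    | single x n => simp [nG_apply, perm_single, Finsupp.mapDomain_finsetSum, hr']
  have := h2 a
  rw [ha, Finsupp.mapDomain_zero] at this
  exact (nsmul_eq_zero_iff_right Fintype.card_ne_zero).1 this.symm

theorem perm_h0 (hg : ∀ σ, σ ∈ Subgroup.zpowers g) (hf : ∀ (σ : G) (x : X), σ • x = x → σ = 1) :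
    (dG (perm G X) g).ker ≤ (nG (perm G X)).range := by
  classical
  obtain ⟨r, hr, hr'⟩ := exists_rep (G := G) (X := X)
  refine fun a ha => ⟨a.filter fun x => r x = x, Finsupp.ext fun x => ?_⟩
  obtain ⟨σ, hσ⟩ := hr x
  rw [nG_apply, Finsupp.finsetSum_apply, Finset.sum_eq_single σ⁻¹ (fun τ _ hτ => ?_) (by simp), perm_apply, inv_inv,
    Finsupp.filter_apply_pos _ _ (by rw [hr', hσ]), ← perm_smul σ a x, fix_all hg ha]
  rw [perm_apply, Finsupp.filter_apply_neg]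
  rw [hr', ← hσ, eq_inv_smul_iff, ← mul_smul]
  exact fun h => hτ (eq_inv_of_mul_eq_one_left (hf _ _ h))

end rep

end Crest.Agent.R18.FI
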