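import Crest.Agent.R18.Dict
import Crest.Agent.R18.FI.Alg

/-! Row 18 block FI: the semi-local ring at `ℓ`, rays, finiteness of ray class groups. -/

set_option autoImplicit false
open scoped NumberField
open IsDedekindDomain

namespace Crest.Agent.R18.FI

variable {L : Type*} [Field L]

/-- `p` lies in the Jacobson radical of `S` -/
def Jac (S : Subring L) (p : L) : Prop := p ∈ S ∧ ∀ s ∈ S, ∃ t ∈ S, (1 + p * s) * t = 1

theorem Jac.mul {S : Subring L} {p r : L} (h : Jac S p) (hr : r ∈ S) : Jac S (p * r) :=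
  ⟨mul_mem h.1 hr, fun s hs => mul_assoc p r s ▸ h.2 _ (mul_mem hr hs)⟩

/-- the group `1 + p Λ` -/
def oneAdd {S : Subring L} {p : L} (hp : Jac S p) (Λ : AddSubgroup L) (h1 : ∀ x ∈ Λ, x ∈ S)
    (h2 : ∀ s ∈ S, p * s ∈ Λ) : AddSubgroup (Additive Lˣ) where
  carrier := {x | ∃ a ∈ Λ, (x.toMul : L) = 1 + p * a}
  zero_mem' := ⟨0, zero_mem _, by simp⟩
  add_mem' := by
    rintro x y ⟨a, ha, hx⟩ ⟨b, hb, hy⟩
    refine ⟨_, add_mem (add_mem ha hb) (h2 _ (mul_mem (h1 a ha) (h1 b hb))), ?_⟩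
    rw [toMul_add, Units.val_mul, hx, hy]
    ring
  neg_mem' := by
    rintro x ⟨a, ha, hx⟩
    obtain ⟨t, ht, e⟩ := hp.2 a (h1 a ha)
    refine ⟨_, add_mem (neg_mem ha) (h2 _ (mul_mem (mul_mem (h1 a ha) (h1 a ha)) ht)), ?_⟩
    rw [toMul_neg, Units.val_inv_eq_inv_val, hx, ← eq_inv_of_mul_eq_one_right e]
    linear_combination (1 - p * a) * e

variable [NumberField L]

variable (L) in
/-- elements integral at the primes over `ℓ` -/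
noncomputable def Sl (ℓ : ℕ) : Subring L :=
  ⨅ 𝔓 : HeightOneSpectrum (𝓞 L), ⨅ _ : (ℓ : 𝓞 L) ∈ 𝔓.asIdeal, (𝔓.valuation L).integer

variable {ℓ : ℕ}

theorem mem_Sl {x : L} : x ∈ Sl L ℓ ↔ ∀ 𝔓 : HeightOneSpectrum (𝓞 L), (ℓ : 𝓞 L) ∈ 𝔓.asIdeal → 𝔓.valuation L x ≤ 1 := by
  simp only [Sl, Subring.mem_iInf, Valuation.mem_integer_iff]

theorem int_mem_Sl (a : 𝓞 L) : algebraMap (𝓞 L) L a ∈ Sl L ℓ := mem_Sl.2 fun 𝔓 _ => 𝔓.valuation_le_one a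

theorem val_one_add {𝔓 : HeightOneSpectrum (𝓞 L)} (h : (ℓ : 𝓞 L) ∈ 𝔓.asIdeal) {s : L} (hs : s ∈ Sl L ℓ) :
    𝔓.valuation L (1 + ℓ * s) = 1 := by
  refine Valuation.map_one_add_of_lt _ ?_
  rw [map_mul]
  exact mul_lt_one_of_lt_of_le (by simpa using (𝔓.valuation_lt_one_iff_mem (K := L) ℓ).2 h) (mem_Sl.1 hs 𝔓 h)

theorem jac_l (hℓ : ℓ.Prime) : Jac (Sl L ℓ) ℓ := by
  refine ⟨natCast_mem _ _, fun s hs => ⟨(1 + ℓ * s)⁻¹, mem_Sl.2 fun 𝔓 h => by rw [map_inv₀, val_one_add h hs, inv_one],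
    mul_inv_cancel₀ fun h0 => ?_⟩⟩
  obtain ⟨𝔓, h𝔓, hl⟩ := Ideal.exists_le_maximal (Ideal.span {(ℓ : 𝓞 L)}) (by
    rw [Ne, Ideal.span_singleton_eq_top, ← map_natCast (algebraMap ℤ (𝓞 L)), isUnit_map_iff]
    exact (Nat.prime_iff_prime_int.1 hℓ).not_isUnit)
  have hl' := hl (Ideal.mem_span_singleton_self _)
  have := val_one_add (𝔓 := ⟨𝔓, h𝔓.isPrime, fun h => hℓ.ne_zero (by simpa [h] using hl')⟩) hl' hs
  simp [h0] at this

theorem jac_pow (hℓ : ℓ.Prime) (N : ℕ) : Jac (Sl L ℓ) (ℓ ^ (N + 1)) :=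
  pow_succ' (ℓ : L) N ▸ (jac_l hℓ).mul (pow_mem (natCast_mem _ _) _)

variable (L) in
/-- the ray modulo `ℓ ^ (N + 1)` -/
noncomputable def ray (hℓ : ℓ.Prime) (N : ℕ) : AddSubgroup (Additive Lˣ) :=
  oneAdd (jac_pow hℓ N) (Sl L ℓ).toAddSubgroup (fun _ h => h) fun _ h => (Sl L ℓ).mul_mem (jac_pow hℓ N).1 h

variable (L ℓ) in
/-- units at the primes over `ℓ` -/
def SU : AddSubgroup (Additive Lˣ) where
  carrier := {x | ∀ 𝔓 : HeightOneSpectrum (𝓞 L), (ℓ : 𝓞 L) ∈ 𝔓.asIdeal → 𝔓.valuation L (x.toMul : L) = 1}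
  zero_mem' := by simp
  add_mem' hx hy 𝔓 h := by rw [toMul_add, Units.val_mul, map_mul, hx 𝔓 h, hy 𝔓 h, mul_one]
  neg_mem' hx 𝔓 h := by rw [toMul_neg, Units.val_inv_eq_inv_val, map_inv₀, hx 𝔓 h, inv_one]

theorem mem_SU {x : Additive Lˣ} {s : L} (hs : s ∈ Sl L ℓ) (h : (x.toMul : L) = 1 + ℓ * s) : x ∈ SU L ℓ :=
  fun _ h' => h ▸ val_one_add h' hs

theorem ray_le (hℓ : ℓ.Prime) (N : ℕ) : ray L hℓ N ≤ SU L ℓ := fun _ ⟨_, hs, e⟩ =>
  mem_SU (mul_mem (pow_mem (natCast_mem _ _) N) hs) (by rw [e, pow_succ', mul_assoc])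

theorem exists_int_approx (hℓ : ℓ ≠ 0) (N : ℕ) {x : L} (hx : x ∈ Sl L ℓ) :
    ∃ a : 𝓞 L, ∃ s ∈ Sl L ℓ, x = algebraMap _ L a + ℓ ^ N * s := by
  let J : Ideal (𝓞 L) := (LinearMap.range (Algebra.linearMap (𝓞 L) L)).comap (LinearMap.toSpanSingleton _ L x)
  have : J ⊔ Ideal.span {(ℓ : 𝓞 L) ^ N} = ⊤ := by
    by_contra h
    obtain ⟨m, hm, hl⟩ := Ideal.exists_le_maximal _ h
    have hl' := hm.isPrime.mem_of_pow_mem N (hl (Ideal.mem_sup_right (Ideal.mem_span_singleton_self _)))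
    obtain ⟨n, d, e⟩ := HeightOneSpectrum.exists_primeCompl_mul_eq_of_integer
      ⟨m, hm.isPrime, fun h => hℓ (by simpa [h] using hl')⟩ x (mem_Sl.1 hx _ hl')
    exact d.2 (hl (Ideal.mem_sup_left ⟨n, by simpa [Algebra.smul_def, mul_comm] using e.symm⟩))
  obtain ⟨b, ⟨a, ha⟩, c, hc, e⟩ := Submodule.mem_sup.1 ((Ideal.eq_top_iff_one _).1 this)
  obtain ⟨c, rfl⟩ := Ideal.mem_span_singleton'.1 hc
  refine ⟨a, _, mul_mem (int_mem_Sl c) hx, ?_⟩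
  have e' := congrArg (algebraMap _ L) e
  simp only [map_add, map_mul, map_pow, map_natCast, map_one] at e'
  simp only [Algebra.linearMap_apply, LinearMap.toSpanSingleton_apply, Algebra.smul_def] at ha
  linear_combination -ha - x * e'

theorem ray_rel (hℓ : ℓ.Prime) (N : ℕ) : (ray L hℓ N).relIndex (SU L ℓ) ≠ 0 := by
  choose a s hs e using fun x : SU L ℓ => exists_int_approx hℓ.ne_zero (N + 1) (x := (x.1.toMul : L))
    (mem_Sl.2 fun 𝔓 h => (x.2 𝔓 h).le)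
  have : Finite (𝓞 L ⧸ Ideal.span {(ℓ : 𝓞 L) ^ (N + 1)}) :=
    Ideal.finiteQuotientOfFreeOfNeBot _ (by simp [hℓ.ne_zero])
  refine rel_ne_zero (fun x => Ideal.Quotient.mk (Ideal.span {(ℓ : 𝓞 L) ^ (N + 1)}) (a x)) fun x y h => ?_
  obtain ⟨c, hc⟩ := Ideal.mem_span_singleton'.1 (Ideal.Quotient.eq.1 h)
  have e' := congrArg (algebraMap _ L) hc
  simp only [map_sub, map_mul, map_pow, map_natCast] at e'
  refine ⟨(algebraMap _ L c + s x - s y) * (y.1.toMul : L)⁻¹, (Sl L ℓ).mul_mem (sub_mem (add_mem (int_mem_Sl c) (hs x)) (hs y))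
    (mem_Sl.2 fun 𝔓 h => by rw [map_inv₀, y.2 𝔓 h, inv_one]), ?_⟩
  rw [toMul_sub, Units.val_div_eq_div_val, div_eq_iff (Units.ne_zero _), add_mul, mul_assoc, mul_assoc,
    inv_mul_cancel₀ (Units.ne_zero _)]
  linear_combination e x - e y - e'

variable (L) in
/-- the divisor map -/
noncomputable def dvH : Additive Lˣ →+ (HeightOneSpectrum (𝓞 L) →₀ ℤ) :=
  AddMonoidHom.mk' (fun x => dv (x.toMul : L)) fun x y => dv_mul x.toMul.ne_zero y.toMul.ne_zero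

theorem dvH_apply (x : Additive Lˣ) (𝔓 : HeightOneSpectrum (𝓞 L)) : dvH L x 𝔓 = ord 𝔓 (x.toMul : L) := dv_apply _ _

variable (L ℓ) in
/-- divisors prime to `ℓ` -/
def J0 : AddSubgroup (HeightOneSpectrum (𝓞 L) →₀ ℤ) where
  carrier := {D | ∀ 𝔓 : HeightOneSpectrum (𝓞 L), (ℓ : 𝓞 L) ∈ 𝔓.asIdeal → D 𝔓 = 0}
  zero_mem' _ _ := rfl
  add_mem' hx hy 𝔓 h := by rw [Finsupp.add_apply, hx 𝔓 h, hy 𝔓 h, add_zero]
  neg_mem' hx 𝔓 h := by rw [Finsupp.neg_apply, hx 𝔓 h, neg_zero]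

theorem mem_SU_iff {x : Additive Lˣ} : x ∈ SU L ℓ ↔ dvH L x ∈ J0 L ℓ :=
  forall₂_congr fun 𝔓 _ => by rw [dvH_apply, ord_eq_zero_iff _ (Units.ne_zero _)]

theorem ray_dv (hℓ : ℓ.Prime) (N : ℕ) : ((ray L hℓ N).map (dvH L)).relIndex (J0 L ℓ) ≠ 0 := by
  refine AddSubgroup.relIndex_ne_zero_trans (right_ne_zero_of_mul (rel_lang (dvH L) (ray_le hℓ N) ▸ ray_rel hℓ N)) ?_
  obtain ⟨T, hT⟩ := exists_class_reps L
  choose r hr x hx e using hT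
  refine rel_ne_zero (fun D : J0 L ℓ => (⟨r D, hr D⟩ : T)) fun D D' h => ?_
  have : dvH L (.ofMul (Units.mk0 _ (hx D)) - .ofMul (Units.mk0 _ (hx D'))) = D - D' := by
    conv_rhs => rw [e D, e D', show r D = r D' from congrArg Subtype.val h, add_sub_add_left_eq_sub]
    exact map_sub ..
  exact ⟨_, mem_SU_iff.2 (this ▸ sub_mem D.2 D'.2), this⟩

theorem fiSub_index (L' : Type*) [Field L'] [NumberField L'] [Algebra L L'] (hℓ : ℓ.Prime) (N : ℕ) :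
    (fiSub L L' ℓ (N + 1)).index ≠ 0 := by
  classical
  let π : (HeightOneSpectrum (𝓞 L) →₀ ℤ) →+ _ := Finsupp.filterAddHom fun 𝔓 => ¬ (ℓ : 𝓞 L) ∈ 𝔓.asIdeal
  have h1 : (((ray L hℓ N).map (dvH L)).comap π).index ≠ 0 := by
    rw [AddSubgroup.index_comap]
    refine fun h => ray_dv hℓ N (AddSubgroup.relIndex_eq_zero_of_le_right ?_ h)
    rintro _ ⟨D, rfl⟩ 𝔓 h
    exact Finsupp.filter_apply_neg _ _ (not_not.2 h)
  refine fun h => h1 (Nat.eq_zero_of_zero_dvd (h ▸ AddSubgroup.index_dvd_of_le ?_))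
  rintro D ⟨x, ⟨s, hs, e⟩, hx⟩
  rw [← D.filter_add_filter_not fun 𝔓 => (ℓ : 𝓞 L) ∈ 𝔓.asIdeal]
  refine add_mem ?_ (AddSubgroup.subset_closure (.inl (.inl ⟨_, x.toMul.ne_zero, fun 𝔩 h => ?_, hx.symm⟩)))
  · clear hx
    induction D using Finsupp.induction_linear with
    | zero =>
      rw [Finsupp.filter_zero]
      exact zero_mem _
    | add a b ha hb =>
      rw [Finsupp.filter_add]
      exact add_mem ha hb
    | single 𝔩 n =>
      by_cases h : (ℓ : 𝓞 L) ∈ 𝔩.asIdeal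
      · rw [Finsupp.filter_single_of_pos _ (by exact h), ← Finsupp.smul_single_one]
        exact zsmul_mem (AddSubgroup.subset_closure (.inr ⟨𝔩, h, rfl⟩)) n
      · rw [Finsupp.filter_single_of_neg _ (by exact h)]
        exact zero_mem _
  · rw [e, add_sub_cancel_left, map_mul]
    exact mul_le_of_le_one_right' (mem_Sl.1 hs 𝔩 h)

end Crest.Agent.R18.FI
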